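import Vale.Agent.P181.Kills

namespace Vale.Agent.P181

open MvPolynomial Finset

noncomputable section

variable {σ : Type*}

theorem step1 {a : ℕ} {v : MvPolynomial σ ℂ} (hv : v ∈ homogeneousSubmodule σ ℂ 1)
    (I : Finset (Fin a)) : ∀ (b : ℕ) (Z : MultilinearMap ℂ (fun _ : Fin a => MvPolynomial σ ℂ) ℂ)
    (_ : Kills b Z) (d : Fin a → ℕ) (_ : ∑ i ∈ I, d i ≤ b) (f : Fin a → MvPolynomial σ ℂ)
    (_ : ∀ i ∈ I, f i ∈ homogeneousSubmodule σ ℂ (d i)),
    Z (fun i => if i ∈ I then v ^ (b - d i) * f i else v ^ b) = 0 := by
  classical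
  induction I using Finset.induction_on with
  | empty =>
    intro b Z hZ d _ f _
    simpa using hZ.zero _ (isProd_pow hv b)
  | insert i0 I hi0 ih =>
    intro b Z hZ d hd f hf
    rw [Finset.sum_insert hi0] at hd
    -- reduce `f i0` to a power of a linear form
    set m : Fin a → MvPolynomial σ ℂ := fun i => if i ∈ insert i0 I then v ^ (b - d i) * f i
      else v ^ b with hm
    have hupd : Z m = ((Z.toLinearMap m i0) ∘ₗ LinearMap.mulLeft ℂ (v ^ (b - d i0))) (f i0) := by
      rw [LinearMap.comp_apply, LinearMap.mulLeft_apply, MultilinearMap.toLinearMap_apply]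
      congr 1
      have : m i0 = v ^ (b - d i0) * f i0 := by simp [hm]
      rw [← this, Function.update_eq_self]
    rw [hupd]
    refine pow_span (d i0) _ ?_ (f i0) (hf i0 (Finset.mem_insert_self _ _))
    intro w hw
    rw [LinearMap.comp_apply, LinearMap.mulLeft_apply, MultilinearMap.toLinearMap_apply]
    -- the common value
    let G : Fin a → Fin a → MvPolynomial σ ℂ := fun k i =>
      if i = k then w ^ d i0 * v ^ (b - d i0) else if i ∈ I then v ^ (b - d i) * f i else v ^ b
    have hgoal : Function.update m i0 (v ^ (b - d i0) * w ^ d i0) = G i0 := by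
      funext i
      by_cases h : i = i0
      · subst h
        simp [G, mul_comm]
      · simp [G, hm, h]
    rw [hgoal]
    have hbd : b - d i0 + d i0 = b := by omega
    have hZ' : Kills (b - d i0 + d i0) Z := by rwa [hbd]
    have hpol := ih (b - d i0) _ (hZ'.polar hv hw) d (by omega) f
      (fun i hi => hf i (Finset.mem_insert_of_mem hi))
    rw [polar_apply] at hpol
    simp only [LinearMap.mulLeft_apply] at hpol
    rw [← Finset.sum_add_sum_compl I] at hpol
    have hI : ∑ k ∈ I, Z (fun i =>
        if i = k then w ^ d i0 * (if i ∈ I then v ^ (b - d i0 - d i) * f i else v ^ (b - d i0))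
        else v ^ d i0 * (if i ∈ I then v ^ (b - d i0 - d i) * f i else v ^ (b - d i0))) = 0 := by
      refine Finset.sum_eq_zero fun k hk => ?_
      have hle : ∀ i ∈ I, d i ≤ ∑ j ∈ I, d j := fun i hi =>
        Finset.single_le_sum (fun j _ => Nat.zero_le (d j)) hi
      have := ih b Z hZ (Function.update d k (d k + d i0)) ?_
        (Function.update f k (w ^ d i0 * f k)) ?_
      · rw [← this]
        congr 1
        funext i
        by_cases hik : i = k
        · subst hik
          rw [if_pos rfl, if_pos hk, if_pos hk, Function.update_self, Function.update_self]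
          have : b - (d i + d i0) = b - d i0 - d i := by omega
          rw [this]
          ring
        · rw [if_neg hik]
          by_cases hiI : i ∈ I
          · rw [if_pos hiI, if_pos hiI, Function.update_of_ne hik, Function.update_of_ne hik,
              ← mul_assoc, ← pow_add]
            congr 2
            have := hle i hiI
            omega
          · rw [if_neg hiI, if_neg hiI, ← pow_add]
            congr 1
            omega
      · have : ∑ i ∈ I, Function.update d k (d k + d i0) i = ∑ i ∈ I, d i + d i0 := by
          rw [← Finset.add_sum_erase I _ hk, ← Finset.add_sum_erase I d hk, Function.update_self]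
          have : ∑ x ∈ I.erase k, Function.update d k (d k + d i0) x = ∑ x ∈ I.erase k, d x := by
            refine Finset.sum_congr rfl fun x hx => ?_
            rw [Function.update_of_ne (Finset.ne_of_mem_erase hx)]
          rw [this]
          ring
        omega
      · intro i hi
        by_cases hik : i = k
        · subst hik
          rw [Function.update_self, Function.update_self]
          exact hom_mul (hom_pow hw (d i0)) (hf i (Finset.mem_insert_of_mem hi)) (add_comm _ _)
        · rw [Function.update_of_ne hik, Function.update_of_ne hik]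
          exact hf i (Finset.mem_insert_of_mem hi)
    rw [hI, zero_add] at hpol
    have hIc : ∀ k ∈ Iᶜ, Z (fun i =>
        if i = k then w ^ d i0 * (if i ∈ I then v ^ (b - d i0 - d i) * f i else v ^ (b - d i0))
        else v ^ d i0 * (if i ∈ I then v ^ (b - d i0 - d i) * f i else v ^ (b - d i0))) =
        Z (G i0) := by
      intro k hk
      have hkI : k ∉ I := Finset.mem_compl.mp hk
      have hle : ∀ i ∈ I, d i ≤ ∑ j ∈ I, d j := fun i hi =>
        Finset.single_le_sum (fun j _ => Nat.zero_le (d j)) hi
      have hGk : (fun i =>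
          if i = k then w ^ d i0 * (if i ∈ I then v ^ (b - d i0 - d i) * f i else v ^ (b - d i0))
          else v ^ d i0 * (if i ∈ I then v ^ (b - d i0 - d i) * f i else v ^ (b - d i0))) = G k := by
        funext i
        by_cases hik : i = k
        · subst hik
          simp [G, hkI]
        · by_cases hiI : i ∈ I
          · simp only [G, if_neg hik, if_pos hiI]
            rw [← mul_assoc, ← pow_add]
            congr 2
            have := hle i hiI
            omega
          · simp only [G, if_neg hik, if_neg hiI]
            rw [← pow_add]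
            congr 1
            omega
      rw [hGk, ← hZ.symm (Equiv.swap k i0)]
      congr 1
      funext i
      by_cases hi : i = i0
      · subst hi
        simp [G]
      · by_cases hik : i = k
        · subst hik
          simp [G, hi, hkI, hi0, Ne.symm hi]
        · rw [Equiv.swap_apply_of_ne_of_ne hik hi]
          simp [G, hi, hik]
    rw [Finset.sum_congr rfl hIc, Finset.sum_const, nsmul_eq_mul] at hpol
    rcases mul_eq_zero.mp hpol with h | h
    · exfalso
      have hc : Iᶜ.card = 0 := by exact_mod_cast h
      rw [Finset.card_eq_zero] at hc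
      have : i0 ∈ Iᶜ := Finset.mem_compl.mpr hi0
      rw [hc] at this
      simp at this
    · exact h

/-- `0 + 1 + ⋯ + (a - 1)` -/
def tri (a : ℕ) : ℕ := ∑ i : Fin a, (a - 1 - (i : ℕ))

theorem le_tri {a : ℕ} (i : Fin a) : a - 1 - (i : ℕ) ≤ tri a :=
  Finset.single_le_sum (f := fun i : Fin a => a - 1 - (i : ℕ)) (fun _ _ => Nat.zero_le _)
    (Finset.mem_univ i)

theorem step2 {a : ℕ} {v : MvPolynomial σ ℂ} (hv : v ∈ homogeneousSubmodule σ ℂ 1) (n : ℕ) :
    ∀ (Z : MultilinearMap ℂ (fun _ : Fin a => MvPolynomial σ ℂ) ℂ) (_ : Kills (tri a + n) Z)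
    (f : Fin a → MvPolynomial σ ℂ)
    (_ : ∀ i : Fin a, f i ∈ homogeneousSubmodule σ ℂ ((a - 1 - (i : ℕ)) + n)),
    Z (fun i : Fin a => v ^ (tri a - (a - 1 - (i : ℕ))) * f i) = 0 := by
  induction n with
  | zero =>
    intro Z hZ f hf
    have := step1 hv (univ : Finset (Fin a)) (tri a) Z hZ (fun i : Fin a => a - 1 - (i : ℕ)) le_rfl f
      (fun i _ => hf i)
    simpa using this
  | succ n ih =>
    intro Z hZ f hf
    have := pencil a (fun _ => 1) (fun i : Fin a => (a - 1 - (i : ℕ)) + (n + 1)) ?_
      (Z.compLinearMap (fun i : Fin a => LinearMap.mulLeft ℂ (v ^ (tri a - (a - 1 - (i : ℕ)))))) ?_ f hf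
    · simpa using this
    · intro i
      have h1 : (∑ j : Fin a, if i ≤ j then 1 else 0) = a - (i : ℕ) := by
        rw [Finset.sum_boole]
        simp only [Nat.cast_id]
        have : (univ.filter fun j : Fin a => i ≤ j) = Finset.Ici i := by
          ext j; simp
        rw [this, Fin.card_Ici]
      rw [h1]
      have := i.isLt
      omega
    · intro z hz f' hf'
      simp only [MultilinearMap.compLinearMap_apply, LinearMap.mulLeft_apply, pow_one]
      have hk : Kills (tri a + n + 1) Z := by
        have : tri a + n + 1 = tri a + (n + 1) := by ring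
        rwa [this]
      have := ih _ (hk.mul (isProd_one hz)) f' ?_
      · simp only [MultilinearMap.compLinearMap_apply, LinearMap.mulLeft_apply] at this
        rw [← this]
        congr 1
        funext i
        ring
      · intro i
        have := hf' i
        have e : (a - 1 - (i : ℕ)) + (n + 1) - 1 = (a - 1 - (i : ℕ)) + n := by omega
        rwa [e] at this

theorem sum_c {a : ℕ} : ∑ i : Fin a, (tri a - (a - 1 - (i : ℕ))) + tri a = a * tri a := by
  have h : ∑ i : Fin a, (tri a - (a - 1 - (i : ℕ))) + ∑ i : Fin a, (a - 1 - (i : ℕ)) =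
      ∑ _i : Fin a, tri a := by
    rw [← Finset.sum_add_distrib]
    refine Finset.sum_congr rfl fun i _ => ?_
    have := le_tri i
    omega
  simpa [tri] using h

theorem two_tri (a : ℕ) : 2 * tri a = a * (a - 1) := by
  have h : tri a = ∑ i ∈ Finset.range a, i := by
    rw [tri, ← Finset.sum_range_reflect, Finset.sum_range]
  rw [h, mul_comm, Finset.sum_range_id_mul_two]

theorem core {a b : ℕ} (hab : a * (a - 1) ^ 2 ≤ 2 * b)
    (Z : MultilinearMap ℂ (fun _ : Fin a => MvPolynomial σ ℂ) ℂ) (hZ : Kills b Z)
    (f : Fin a → MvPolynomial σ ℂ) (hf : ∀ i, f i ∈ homogeneousSubmodule σ ℂ b) : Z f = 0 := by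
  have ht := two_tri a
  have hc := sum_c (a := a)
  have hN : tri a ≤ b := by
    rcases Nat.lt_or_ge a 2 with h | h
    · interval_cases a <;> simp [tri]
    · have : a * (a - 1) * 1 ≤ a * (a - 1) * (a - 1) := Nat.mul_le_mul_left _ (by omega)
      have e : a * (a - 1) ^ 2 = a * (a - 1) * (a - 1) := by ring
      rw [mul_one] at this
      omega
  have hsum : ∑ i : Fin a, (tri a - (a - 1 - (i : ℕ))) ≤ b := by
    rcases Nat.eq_zero_or_pos a with rfl | h
    · simp
    · obtain ⟨k, rfl⟩ : ∃ k, a = k + 1 := ⟨a - 1, by omega⟩
      simp only [Nat.add_sub_cancel] at *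
      have e1 : (k + 1) * tri (k + 1) = k * tri (k + 1) + tri (k + 1) := by ring
      have e2 : 2 * (k * tri (k + 1)) = (k + 1) * k ^ 2 := by
        calc 2 * (k * tri (k + 1)) = k * (2 * tri (k + 1)) := by ring
          _ = k * ((k + 1) * k) := by rw [ht]
          _ = (k + 1) * k ^ 2 := by ring
      omega
  refine pencil a (fun i : Fin a => tri a - (a - 1 - (i : ℕ))) (fun _ => b) ?_ Z ?_ f hf
  · intro i
    refine le_trans (Finset.sum_le_sum fun j _ => ?_) hsum
    split_ifs
    · exact le_rfl
    · exact Nat.zero_le _
  · intro v hv f' hf'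
    have hb : tri a + (b - tri a) = b := by omega
    have hk : Kills (tri a + (b - tri a)) Z := by rwa [hb]
    refine step2 hv (b - tri a) Z hk f' fun i => ?_
    have := hf' i
    have e : b - (tri a - (a - 1 - (i : ℕ))) = (a - 1 - (i : ℕ)) + (b - tri a) := by
      have := le_tri i
      omega
    rwa [e] at this

end

end Vale.Agent.P181
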