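import Mathlib

namespace Vale.Agent.P181

open scoped TensorProduct

universe u w

/-- The product `v₁ ⋯ v_k` in the symmetric power `Sym^k V`. -/
noncomputable def symProd {k : ℕ} {V : Type u} [AddCommGroup V] [Module ℂ V] (v : Fin k → V) :
    Sym[ℂ]^k V :=
  ⨂ₛ[ℂ] i, v i

/-- `Ψ` is the canonical (Foulkes-Howe) map `Sym^a(Sym^b V) → Sym^b(Sym^a V)`: it is linear and
`Ψ (∏ᵢ ∏ⱼ v i j) = ∑_s ∏ⱼ ∏ᵢ v i (s i j)`, the sum over `s 1, …, s a` in the symmetric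
group on `b` letters. -/
def IsFoulkesHowe {a b : ℕ} {V : Type u} [AddCommGroup V] [Module ℂ V]
    (Ψ : Sym[ℂ]^a (Sym[ℂ]^b V) →ₗ[ℂ] Sym[ℂ]^b (Sym[ℂ]^a V)) : Prop :=
  ∀ v : Fin a → Fin b → V,
    Ψ (symProd fun i => symProd fun j => v i j) =
      ∑ s : Fin a → Equiv.Perm (Fin b), symProd fun j => symProd fun i => v i (s i j)

/-- `G` is the linear map `Sym^k V → Sym^k W`, `v₁ ⋯ v_k ↦ (g v₁) ⋯ (g v_k)`, induced by the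
linear map `g : V → W`. -/
def IsInduced {k : ℕ} {V : Type u} {W : Type w} [AddCommGroup V] [Module ℂ V]
    [AddCommGroup W] [Module ℂ W] (g : V →ₗ[ℂ] W) (G : Sym[ℂ]^k V →ₗ[ℂ] Sym[ℂ]^k W) : Prop :=
  ∀ v : Fin k → V, G (symProd v) = symProd fun i => g (v i)

/-- `Ψ` commutes with the actions of `GL(V)` on `Sym^a(Sym^b V)` and `Sym^b(Sym^a V)`. -/
def IsGLEquivariant {a b : ℕ} {V : Type u} [AddCommGroup V] [Module ℂ V]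
    (Ψ : Sym[ℂ]^a (Sym[ℂ]^b V) →ₗ[ℂ] Sym[ℂ]^b (Sym[ℂ]^a V)) : Prop :=
  ∀ g : V ≃ₗ[ℂ] V, ∃ (gb : Sym[ℂ]^b V →ₗ[ℂ] Sym[ℂ]^b V) (ga : Sym[ℂ]^a V →ₗ[ℂ] Sym[ℂ]^a V)
    (G : Sym[ℂ]^a (Sym[ℂ]^b V) →ₗ[ℂ] Sym[ℂ]^a (Sym[ℂ]^b V))
    (H : Sym[ℂ]^b (Sym[ℂ]^a V) →ₗ[ℂ] Sym[ℂ]^b (Sym[ℂ]^a V)),
    IsInduced g.toLinearMap gb ∧ IsInduced gb G ∧ IsInduced g.toLinearMap ga ∧ IsInduced ga H ∧
      ∀ x, Ψ (G x) = H (Ψ x)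

end Vale.Agent.P181
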