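import Vale.Agent.P181.Pol

namespace Vale.Agent.P181

open scoped TensorProduct

noncomputable section

universe u w

variable {a b : ℕ} {V : Type u} [AddCommGroup V] [Module ℂ V]

/-- projection of the tensor algebra onto its degree `a` part -/
def prA (a : ℕ) (V : Type u) [AddCommGroup V] [Module ℂ V] :
    TensorAlgebra ℂ V →ₗ[ℂ] ⨂[ℂ]^a V :=
  (DirectSum.component ℂ ℕ (fun n => ⨂[ℂ]^n V) a) ∘ₗ
    (TensorAlgebra.toDirectSum (R := ℂ) (M := V)).toLinearMap

theorem prA_prod (v : Fin a → V) :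
    prA a V (List.ofFn fun i => TensorAlgebra.ι ℂ (v i)).prod = ⨂ₜ[ℂ] i, v i := by
  have h := TensorAlgebra.toDirectSum_tensorPower_tprod (R := ℂ) (M := V) v
  rw [TensorAlgebra.tprod_apply] at h
  rw [prA, LinearMap.comp_apply, AlgHom.toLinearMap_apply, h]
  exact DirectSum.of_eq_same (β := fun n => ⨂[ℂ]^n V) a (⨂ₜ[ℂ] i, v i)

/-- columns -/
def colMap (a b : ℕ) (V : Type u) [AddCommGroup V] [Module ℂ V] :
    (⨂[ℂ] (_ : Fin b), TensorAlgebra ℂ V) →ₗ[ℂ] Sym[ℂ]^b (Sym[ℂ]^a V) :=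
  (SymmetricPower.mk ℂ (Fin b) (Sym[ℂ]^a V)) ∘ₗ
    PiTensorProduct.map (fun _ => (SymmetricPower.mk ℂ (Fin a) V) ∘ₗ prA a V)

/-- rows -/
def rowMap (b : ℕ) (V : Type u) [AddCommGroup V] [Module ℂ V] :
    Sym[ℂ]^b V →ₗ[ℂ] (⨂[ℂ] (_ : Fin b), TensorAlgebra ℂ V) :=
  PiTensorProduct.map (fun _ => TensorAlgebra.ι ℂ) ∘ₗ symmz b V

/-- the multilinear map underlying the Foulkes-Howe map -/
def howeMul (a b : ℕ) (V : Type u) [AddCommGroup V] [Module ℂ V] :
    MultilinearMap ℂ (fun _ : Fin a => Sym[ℂ]^b V) (Sym[ℂ]^b (Sym[ℂ]^a V)) :=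
  (colMap a b V).compMultilinearMap
    ((MultilinearMap.mkPiAlgebraFin ℂ a (⨂[ℂ] (_ : Fin b), TensorAlgebra ℂ V)).compLinearMap
      (fun _ => rowMap b V))

theorem list_prod_tprod {a b : ℕ} {A : Type u} [Ring A] [Algebra ℂ A] (g : Fin a → Fin b → A) :
    (List.ofFn fun i => (⨂ₜ[ℂ] j, g i j : ⨂[ℂ] (_ : Fin b), A)).prod =
      ⨂ₜ[ℂ] j, (List.ofFn fun i => g i j).prod := by
  have h1 := map_list_prod (PiTensorProduct.tprodMonoidHom (R := ℂ) (A := fun _ : Fin b => A))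
    (List.ofFn g)
  rw [List.map_ofFn] at h1
  have h2 : (List.ofFn g).prod = fun j => (List.ofFn fun i => g i j).prod := by
    funext j
    have := map_list_prod (Pi.evalMonoidHom (fun _ : Fin b => A) j) (List.ofFn g)
    rw [List.map_ofFn] at this
    exact this
  rw [h2] at h1
  exact h1.symm

theorem colMap_tprod (v : Fin a → Fin b → V) :
    colMap a b V (⨂ₜ[ℂ] j, (List.ofFn fun i => TensorAlgebra.ι ℂ (v i j)).prod) =
      ⨂ₛ[ℂ] j, ⨂ₛ[ℂ] i, v i j := by
  rw [colMap, LinearMap.comp_apply, PiTensorProduct.map_tprod]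
  simp only [LinearMap.comp_apply, prA_prod]
  rfl

theorem rowMap_tprod (m : Fin b → V) :
    rowMap b V (⨂ₛ[ℂ] j, m j) =
      ∑ e : Equiv.Perm (Fin b), ⨂ₜ[ℂ] j, TensorAlgebra.ι ℂ (m (e j)) := by
  rw [rowMap, LinearMap.comp_apply, symmz_tprod, map_sum]
  refine Finset.sum_congr rfl fun e _ => ?_
  rw [PiTensorProduct.map_tprod]

theorem howeMul_tprod (v : Fin a → Fin b → V) :
    howeMul a b V (fun i => ⨂ₛ[ℂ] j, v i j) =
      ∑ s : Fin a → Equiv.Perm (Fin b), ⨂ₛ[ℂ] j, ⨂ₛ[ℂ] i, v i (s i j) := by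
  rw [howeMul, LinearMap.compMultilinearMap_apply, MultilinearMap.compLinearMap_apply]
  simp only [rowMap_tprod]
  rw [MultilinearMap.map_sum, map_sum]
  refine Finset.sum_congr rfl fun s _ => ?_
  rw [MultilinearMap.mkPiAlgebraFin_apply, list_prod_tprod]
  exact colMap_tprod (fun i j => v i (s i j))

theorem howeMul_perm (e : Equiv.Perm (Fin a)) (f : Fin a → Sym[ℂ]^b V) :
    howeMul a b V (fun i => f (e i)) = howeMul a b V f := by
  have : (howeMul a b V).domDomCongr e = howeMul a b V := by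
    apply MultilinearMap.ext_of_span_eq_top
      (g := fun (i : Fin a) (j : Fin b → V) => (⨂ₛ[ℂ] k, j k : Sym[ℂ]^b V))
    · intro i
      exact SymmetricPower.span_tprod_eq_top ℂ (Fin b) V
    · intro v
      rw [MultilinearMap.domDomCongr_apply]
      have h1 := howeMul_tprod (fun i => v (e i))
      have h2 := howeMul_tprod v
      refine h1.trans (Eq.trans ?_ h2.symm)
      refine Fintype.sum_equiv (Equiv.arrowCongr e (Equiv.refl _)) _ _ fun s => ?_
      congr 1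
      funext j
      have := SymmetricPower.tprod_equiv (R := ℂ) e
        (fun i => v i ((Equiv.arrowCongr e (Equiv.refl _)) s i j))
      rw [← this]
      simp
  exact congrArg (fun Q => Q f) this

/-- The Foulkes-Howe map `Sym^a(Sym^b V) → Sym^b(Sym^a V)`. -/
def howe (a b : ℕ) (V : Type u) [AddCommGroup V] [Module ℂ V] :
    Sym[ℂ]^a (Sym[ℂ]^b V) →ₗ[ℂ] Sym[ℂ]^b (Sym[ℂ]^a V) :=
  symLift (howeMul a b V) howeMul_perm

theorem howe_tprod (v : Fin a → Fin b → V) :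
    howe a b V (⨂ₛ[ℂ] i, ⨂ₛ[ℂ] j, v i j) =
      ∑ s : Fin a → Equiv.Perm (Fin b), ⨂ₛ[ℂ] j, ⨂ₛ[ℂ] i, v i (s i j) := by
  rw [howe, symLift_tprod, howeMul_tprod]

theorem howe_equivariant (g : V →ₗ[ℂ] V) (x : Sym[ℂ]^a (Sym[ℂ]^b V)) :
    howe a b V (symMap a (symMap b g) x) = symMap b (symMap a g) (howe a b V x) := by
  have : (howe a b V) ∘ₗ (symMap a (symMap b g)) = (symMap b (symMap a g)) ∘ₗ (howe a b V) := by
    apply sym_sym_ext
    intro m
    simp only [LinearMap.comp_apply]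
    rw [howe_tprod, symMap_tprod]
    simp only [symMap_tprod]
    rw [howe_tprod, map_sum]
    refine Finset.sum_congr rfl fun s _ => ?_
    rw [symMap_tprod]
    simp only [symMap_tprod]
  exact congrArg (fun F => F x) this

end

end Vale.Agent.P181
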