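import Vale.Agent.P181.Pencil

namespace Vale.Agent.P181

open MvPolynomial Finset

noncomputable section

variable {σ : Type*}

/-- `g` is a product of `b` linear forms -/
def IsProd (b : ℕ) (g : MvPolynomial σ ℂ) : Prop :=
  ∃ s : Multiset (MvPolynomial σ ℂ), Multiset.card s = b ∧
    (∀ l ∈ s, l ∈ homogeneousSubmodule σ ℂ 1) ∧ s.prod = g

theorem IsProd.mul {b c : ℕ} {g h : MvPolynomial σ ℂ} (hg : IsProd b g) (hh : IsProd c h) :
    IsProd (b + c) (g * h) := by
  obtain ⟨s, hs, hs1, hs2⟩ := hg
  obtain ⟨t, ht, ht1, ht2⟩ := hh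
  refine ⟨s + t, by simp [hs, ht], fun l hl => ?_, by simp [hs2, ht2]⟩
  rcases Multiset.mem_add.mp hl with h | h
  · exact hs1 l h
  · exact ht1 l h

theorem isProd_pow {v : MvPolynomial σ ℂ} (hv : v ∈ homogeneousSubmodule σ ℂ 1) (b : ℕ) :
    IsProd b (v ^ b) :=
  ⟨Multiset.replicate b v, by simp, fun l hl => by
    rw [Multiset.eq_of_mem_replicate hl]; exact hv, by simp⟩

theorem isProd_one {v : MvPolynomial σ ℂ} (hv : v ∈ homogeneousSubmodule σ ℂ 1) :
    IsProd 1 v := by
  have := isProd_pow hv 1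
  rwa [pow_one] at this

/-- binary forms `v ^ d + ε w ^ d` split into linear factors -/
theorem binary_factor {v w : MvPolynomial σ ℂ} (hv : v ∈ homogeneousSubmodule σ ℂ 1)
    (hw : w ∈ homogeneousSubmodule σ ℂ 1) (d : ℕ) (ε : ℂ) :
    ∃ (c : ℂ) (g : MvPolynomial σ ℂ), IsProd d g ∧ v ^ d + ε • w ^ d = c • g := by
  rcases Nat.eq_zero_or_pos d with rfl | hd
  · refine ⟨1 + ε, 1, ⟨0, by simp, by simp, by simp⟩, ?_⟩
    rw [pow_zero, pow_zero, add_smul, one_smul]
  · obtain ⟨η, hη⟩ := IsAlgClosed.exists_pow_nat_eq (-ε) hd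
    have hprim := Complex.isPrimitiveRoot_exp d (Nat.pos_iff_ne_zero.mp hd)
    refine ⟨1, ((Polynomial.nthRootsFinset d (1 : ℂ)).val.map
      (fun ζ => v - (ζ * η) • w)).prod, ⟨_, ?_, ?_, rfl⟩, ?_⟩
    · rw [Multiset.card_map]
      exact hprim.card_nthRootsFinset
    · intro l hl
      obtain ⟨ζ, _, rfl⟩ := Multiset.mem_map.mp hl
      exact Submodule.sub_mem _ hv (Submodule.smul_mem _ _ hw)
    · rw [one_smul]
      apply MvPolynomial.funext
      intro x
      have h1 := hprim.pow_sub_pow_eq_prod_sub_mul (eval x v) (η * eval x w) hd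
      have h2 : eval x (v ^ d + ε • w ^ d) = (eval x v) ^ d - (η * eval x w) ^ d := by
        rw [map_add, smul_eval, map_pow, map_pow, mul_pow, hη]
        ring
      rw [h2, h1]
      have h3 : ((Polynomial.nthRootsFinset d (1 : ℂ)).val.map
          (fun ζ => v - (ζ * η) • w)).prod =
          ∏ ζ ∈ Polynomial.nthRootsFinset d (1 : ℂ), (v - (ζ * η) • w) := rfl
      rw [h3, map_prod]
      refine Finset.prod_congr rfl fun ζ _ => ?_
      rw [map_sub, smul_eval]
      ring

/-- symmetric multilinear forms vanishing on all `(g, …, g)`, `g` a product of `b` linear forms -/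
structure Kills {a : ℕ} (b : ℕ)
    (Z : MultilinearMap ℂ (fun _ : Fin a => MvPolynomial σ ℂ) ℂ) : Prop where
  symm : ∀ (π : Equiv.Perm (Fin a)) (f : Fin a → MvPolynomial σ ℂ), Z (fun i => f (π i)) = Z f
  zero : ∀ g, IsProd b g → Z (fun _ => g) = 0

theorem Kills.mul {a b c : ℕ} {Z : MultilinearMap ℂ (fun _ : Fin a => MvPolynomial σ ℂ) ℂ}
    (hZ : Kills (b + c) Z) {g : MvPolynomial σ ℂ} (hg : IsProd c g) :
    Kills b (Z.compLinearMap (fun _ => LinearMap.mulLeft ℂ g)) where
  symm π f := by
    simp only [MultilinearMap.compLinearMap_apply, LinearMap.mulLeft_apply]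
    exact hZ.symm π (fun i => g * f i)
  zero h hh := by
    simp only [MultilinearMap.compLinearMap_apply, LinearMap.mulLeft_apply]
    rw [mul_comm]
    exact hZ.zero _ (hh.mul hg)

/-- the polarisation operator: apply `q` in one slot and `p` in the others, and sum -/
def polar {a : ℕ} (p q : MvPolynomial σ ℂ →ₗ[ℂ] MvPolynomial σ ℂ)
    (Z : MultilinearMap ℂ (fun _ : Fin a => MvPolynomial σ ℂ) ℂ) :
    MultilinearMap ℂ (fun _ : Fin a => MvPolynomial σ ℂ) ℂ :=
  ∑ k : Fin a, Z.compLinearMap (fun i => if i = k then q else p)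

theorem polar_apply {a : ℕ} (p q : MvPolynomial σ ℂ →ₗ[ℂ] MvPolynomial σ ℂ)
    (Z : MultilinearMap ℂ (fun _ : Fin a => MvPolynomial σ ℂ) ℂ)
    (f : Fin a → MvPolynomial σ ℂ) :
    polar p q Z f = ∑ k : Fin a, Z (fun i => if i = k then q (f i) else p (f i)) := by
  rw [polar, _root_.sum_apply]
  refine Finset.sum_congr rfl fun k _ => ?_
  rw [MultilinearMap.compLinearMap_apply]
  congr 1
  funext i
  split_ifs <;> rfl

theorem Kills.polar {a b d : ℕ} {Z : MultilinearMap ℂ (fun _ : Fin a => MvPolynomial σ ℂ) ℂ}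
    (hZ : Kills (b + d) Z) {v w : MvPolynomial σ ℂ} (hv : v ∈ homogeneousSubmodule σ ℂ 1)
    (hw : w ∈ homogeneousSubmodule σ ℂ 1) :
    Kills b (polar (LinearMap.mulLeft ℂ (v ^ d)) (LinearMap.mulLeft ℂ (w ^ d)) Z) where
  symm π f := by
    rw [polar_apply, polar_apply]
    refine Fintype.sum_equiv π _ _ fun k => ?_
    have := hZ.symm π (fun i => if i = π k then LinearMap.mulLeft ℂ (w ^ d) (f i)
      else LinearMap.mulLeft ℂ (v ^ d) (f i))
    rw [← this]
    congr 1
    funext i
    simp only [EmbeddingLike.apply_eq_iff_eq]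
  zero h hh := by
    classical
    rw [polar_apply]
    simp only [LinearMap.mulLeft_apply]
    have hvan : ∀ ε : ℂ, ∑ k ∈ range (a + 1),
        (∑ s ∈ powersetCard k (univ : Finset (Fin a)),
          Z (s.piecewise (fun _ => w ^ d * h) (fun _ => v ^ d * h))) * ε ^ k = 0 := by
      intro ε
      obtain ⟨c, g, hg, hcg⟩ := binary_factor hv hw d ε
      have h1 : Z (fun _ => (v ^ d + ε • w ^ d) * h) = 0 := by
        rw [hcg]
        have h2 : Z (fun _ : Fin a => (c • g) * h) = Z (fun _ : Fin a => c • (h * g)) := by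
          congr 1
          funext _
          rw [smul_mul_assoc, mul_comm g h]
        rw [h2, MultilinearMap.map_smul_univ, hZ.zero _ (hh.mul hg), smul_zero]
      have h3 : (fun _ : Fin a => (v ^ d + ε • w ^ d) * h) =
          (fun _ : Fin a => ε • (w ^ d * h)) + (fun _ : Fin a => v ^ d * h) := by
        funext _
        rw [Pi.add_apply, add_mul, smul_mul_assoc, add_comm]
      rw [h3, MultilinearMap.map_add_univ] at h1
      rw [← h1, ← Finset.powerset_univ, Finset.sum_powerset, Finset.card_univ, Fintype.card_fin]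
      refine Finset.sum_congr rfl fun k _ => ?_
      rw [Finset.sum_mul]
      refine Finset.sum_congr rfl fun s hs => ?_
      have hcard : s.card = k := (Finset.mem_powersetCard.mp hs).2
      have h4 : s.piecewise (fun _ : Fin a => ε • (w ^ d * h)) (fun _ : Fin a => v ^ d * h) =
          s.piecewise (fun i : Fin a => ε • (s.piecewise (fun _ : Fin a => w ^ d * h)
            (fun _ : Fin a => v ^ d * h)) i)
            (s.piecewise (fun _ : Fin a => w ^ d * h) (fun _ : Fin a => v ^ d * h)) := by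
        funext i
        by_cases hi : i ∈ s
        · simp [hi]
        · simp [hi]
      rw [h4, MultilinearMap.map_piecewise_smul, Finset.prod_const, hcard, smul_eq_mul, mul_comm]
    rcases Nat.eq_zero_or_pos a with rfl | ha
    · simp
    · have := coeff_zero_of_eval (a + 1) _ hvan 1 (by omega)
      rw [Finset.powersetCard_one, Finset.sum_map] at this
      rw [← this]
      refine Finset.sum_congr rfl fun k _ => ?_
      congr 1
      funext i
      simp [Finset.piecewise]

end

end Vale.Agent.P181
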