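import Mathlib

namespace Vale.Agent.P181

open scoped TensorProduct

noncomputable section

universe u w

/-- The linear map `Sym^k M → N` induced by a symmetric multilinear map `M^k → N`. -/
def symLift {k : ℕ} {M : Type u} {N : Type w} [AddCommGroup M] [Module ℂ M]
    [AddCommGroup N] [Module ℂ N] (μ : MultilinearMap ℂ (fun _ : Fin k => M) N)
    (hμ : ∀ (e : Equiv.Perm (Fin k)) (f : Fin k → M), μ (fun i => f (e i)) = μ f) :
    Sym[ℂ]^k M →ₗ[ℂ] N where
  toFun := AddCon.lift (addConGen (SymmetricPower.Rel ℂ (Fin k) M))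
    (PiTensorProduct.lift μ).toAddMonoidHom (by
      refine AddCon.addConGen_le.mpr ?_
      rintro x y ⟨e, f⟩
      rw [AddCon.ker_rel, LinearMap.toAddMonoidHom_coe, PiTensorProduct.lift.tprod,
        PiTensorProduct.lift.tprod, hμ])
  map_add' x y := map_add _ x y
  map_smul' r x := by
    induction x using AddCon.induction_on with
    | H x => exact (PiTensorProduct.lift μ).map_smul r x

/-- The linear map `Sym^k M → Sym^k N`, `m₁ ⋯ m_k ↦ g m₁ ⋯ g m_k`, induced by `g : M → N`. -/
def symMap {M : Type u} {N : Type w} [AddCommGroup M] [Module ℂ M]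
    [AddCommGroup N] [Module ℂ N] (k : ℕ) (g : M →ₗ[ℂ] N) : Sym[ℂ]^k M →ₗ[ℂ] Sym[ℂ]^k N :=
  symLift ((SymmetricPower.tprod ℂ).compLinearMap fun _ => g)
    (fun e f => by
      simp only [MultilinearMap.compLinearMap_apply]
      exact SymmetricPower.tprod_equiv e (fun i => g (f i)))

end

end Vale.Agent.P181
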