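import Vale.Agent.P181.SymPow

namespace Vale.Agent.P181

open MvPolynomial

noncomputable section

universe u w

/-- two finite families with the same counting function differ by a permutation -/
theorem exists_perm_of_sum_single {b : ℕ} {α : Type u} (φ ψ : Fin b → α)
    (h : ∑ j, Finsupp.single (φ j) 1 = (∑ j, Finsupp.single (ψ j) 1 : α →₀ ℕ)) :
    ∃ e : Equiv.Perm (Fin b), ∀ j, ψ (e j) = φ j := by
  classical
  have hcard : ∀ c, Fintype.card { j // φ j = c } = Fintype.card { j // ψ j = c } := by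
    intro c
    have := congrArg (fun F : α →₀ ℕ => F c) h
    simp only [Finsupp.finsetSum_apply, Finsupp.single_apply] at this
    rw [Finset.sum_boole, Finset.sum_boole] at this
    rw [Fintype.card_subtype, Fintype.card_subtype]
    exact_mod_cast this
  refine ⟨Equiv.ofFiberEquiv (f := φ) (g := ψ) (fun c => Fintype.equivOfCardEq (hcard c)), ?_⟩
  intro j
  exact Equiv.ofFiberEquiv_map _ j

variable {n b : ℕ} {W : Type u} {N : Type w} [AddCommGroup W] [Module ℂ W]
  [AddCommGroup N] [Module ℂ N]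

/-- a vector as a linear form -/
def lin (β : Module.Basis (Fin n) ℂ W) : W →ₗ[ℂ] MvPolynomial (Fin n) ℂ :=
  β.constr ℂ (fun i => (X i : MvPolynomial (Fin n) ℂ))

theorem lin_basis (β : Module.Basis (Fin n) ℂ W) (i : Fin n) : lin β (β i) = X i :=
  β.constr_basis ℂ _ i

theorem lin_surj (β : Module.Basis (Fin n) ℂ W) (l : MvPolynomial (Fin n) ℂ)
    (hl : l ∈ homogeneousSubmodule (Fin n) ℂ 1) : ∃ x, lin β x = l := by
  have : homogeneousSubmodule (Fin n) ℂ 1 ≤ LinearMap.range (lin β) := by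
    rw [homogeneousSubmodule_one_eq_span_X, Submodule.span_le]
    rintro _ ⟨i, rfl⟩
    exact ⟨β i, lin_basis β i⟩
  exact this hl

theorem lin_mem (β : Module.Basis (Fin n) ℂ W) (x : W) :
    lin β x ∈ homogeneousSubmodule (Fin n) ℂ 1 := by
  rw [lin, Module.Basis.constr_apply_fintype]
  exact Submodule.sum_mem _ fun i _ => Submodule.smul_mem _ _ (isHomogeneous_X ℂ i)

theorem exists_univ (β : Module.Basis (Fin n) ℂ W) (μ : MultilinearMap ℂ (fun _ : Fin b => W) N)
    (hμ : ∀ (e : Equiv.Perm (Fin b)) (f : Fin b → W), μ (fun i => f (e i)) = μ f) :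
    ∃ T : MvPolynomial (Fin n) ℂ →ₗ[ℂ] N, ∀ x : Fin b → W, T (∏ j, lin β (x j)) = μ x := by
  classical
  let T : MvPolynomial (Fin n) ℂ →ₗ[ℂ] N := (basisMonomials (Fin n) ℂ).constr ℂ (fun m =>
    if h : ∃ φ : Fin b → Fin n, ∑ j, Finsupp.single (φ j) 1 = m then
      μ (fun j => β (h.choose j)) else 0)
  have hT : ∀ φ : Fin b → Fin n, T (∏ j, X (φ j)) = μ (fun j => β (φ j)) := by
    intro φ
    have h1 : (∏ j, X (φ j) : MvPolynomial (Fin n) ℂ) =
        basisMonomials (Fin n) ℂ (∑ j, Finsupp.single (φ j) 1) := by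
      rw [coe_basisMonomials]
      change _ = monomial (∑ j, Finsupp.single (φ j) 1) (1 : ℂ)
      rw [monomial_sum_one]
      rfl
    have hex : ∃ ψ : Fin b → Fin n, ∑ j, Finsupp.single (ψ j) 1 =
        (∑ j, Finsupp.single (φ j) 1 : Fin n →₀ ℕ) := ⟨φ, rfl⟩
    rw [h1, Module.Basis.constr_basis, dif_pos hex]
    obtain ⟨e, he⟩ := exists_perm_of_sum_single _ _ hex.choose_spec
    rw [← hμ e (fun j => β (φ j))]
    congr 1
    funext j
    rw [he]
  refine ⟨T, fun x => ?_⟩
  have : ((T.compMultilinearMap (MultilinearMap.mkPiAlgebra ℂ (Fin b)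
      (MvPolynomial (Fin n) ℂ))).compLinearMap (fun _ => lin β)) = μ := by
    apply Module.Basis.ext_multilinear (fun _ => β)
    intro φ
    rw [MultilinearMap.compLinearMap_apply, LinearMap.compMultilinearMap_apply,
      MultilinearMap.mkPiAlgebra_apply]
    simp only [lin_basis]
    exact hT φ
  have h2 := congrArg (fun Q => Q x) this
  simpa using h2

end

end Vale.Agent.P181
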