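import Vale.Agent.P181.CoreThm
import Vale.Agent.P181.Howe
import Vale.Agent.P181.Univ

namespace Vale.Agent.P181

open scoped TensorProduct
open MvPolynomial

noncomputable section

universe u

variable {a b : ℕ} {V : Type u} [AddCommGroup V] [Module ℂ V]

theorem isProd_fin {σ : Type*} {b : ℕ} {g : MvPolynomial σ ℂ} (hg : IsProd b g) :
    ∃ l : Fin b → MvPolynomial σ ℂ, (∀ j, l j ∈ homogeneousSubmodule σ ℂ 1) ∧ g = ∏ j, l j := by
  obtain ⟨s, hs, hs1, hs2⟩ := hg
  obtain ⟨L, rfl⟩ := Quot.exists_rep s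
  have hL : L.length = b := by simpa using hs
  subst hL
  refine ⟨fun j => L.get j, fun j => hs1 _ ?_, ?_⟩
  · exact List.get_mem L j
  · rw [← hs2]
    change (L : Multiset (MvPolynomial σ ℂ)).prod = _
    rw [Multiset.prod_coe]
    exact (Fin.prod_univ_getElem L).symm

theorem isProd_prod {σ : Type*} {b : ℕ} (l : Fin b → MvPolynomial σ ℂ)
    (hl : ∀ j, l j ∈ homogeneousSubmodule σ ℂ 1) :
    ∏ j, l j ∈ homogeneousSubmodule σ ℂ b := by
  have := IsHomogeneous.prod Finset.univ l (fun _ => 1) (fun j _ => hl j)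
  simpa using this

theorem pol_const (f : Module.Dual ℂ V) (m : Fin a → V) :
    pol a V (fun _ => f) (⨂ₛ[ℂ] i, m i) = (a.factorial : ℂ) * ∏ i, f (m i) := by
  rw [pol_tprod]
  have : ∀ e : Equiv.Perm (Fin a), ∏ i, f (m (e i)) = ∏ i, f (m i) := fun e =>
    Fintype.prod_equiv e _ _ fun i => rfl
  rw [Finset.sum_congr rfl fun e _ => this e, Finset.sum_const, Finset.card_univ,
    Fintype.card_perm, Fintype.card_fin, nsmul_eq_mul]

/-- evaluating the image of the Foulkes-Howe map on products of linear forms -/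
theorem key_identity (x : Fin b → Module.Dual ℂ V) (ξ : Sym[ℂ]^a (Sym[ℂ]^b V)) :
    (a.factorial : ℂ) * pol b (Sym[ℂ]^a V) (fun j => pol a V (fun _ => x j)) (howe a b V ξ) =
      ((a.factorial : ℂ) ^ b * (b.factorial : ℂ)) *
        pol a (Sym[ℂ]^b V) (fun _ => pol b V x) ξ := by
  have : (a.factorial : ℂ) • ((pol b (Sym[ℂ]^a V) (fun j => pol a V (fun _ => x j))) ∘ₗ
      (howe a b V)) = ((a.factorial : ℂ) ^ b * (b.factorial : ℂ)) •
        (pol a (Sym[ℂ]^b V) (fun _ => pol b V x)) := by
    apply sym_sym_ext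
    intro v
    rw [LinearMap.smul_apply, LinearMap.smul_apply, LinearMap.comp_apply, howe_tprod, map_sum,
      pol_const, smul_eq_mul, smul_eq_mul]
    have h1 : ∀ s : Fin a → Equiv.Perm (Fin b), ∀ τ : Equiv.Perm (Fin b),
        ∏ j, ((a.factorial : ℂ) * ∏ i, x j (v i (s i (τ j)))) =
          (a.factorial : ℂ) ^ b * ∏ i, ∏ j, x j (v i (s i (τ j))) := by
      intro s τ
      rw [Finset.prod_mul_distrib, Finset.prod_const, Finset.card_univ, Fintype.card_fin,
        Finset.prod_comm]
    have h0 : ∀ s : Fin a → Equiv.Perm (Fin b),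
        pol b (Sym[ℂ]^a V) (fun j => pol a V (fun _ => x j)) (⨂ₛ[ℂ] j, ⨂ₛ[ℂ] i, v i (s i j)) =
          ∑ τ : Equiv.Perm (Fin b),
            (a.factorial : ℂ) ^ b * ∏ i, ∏ j, x j (v i (s i (τ j))) := by
      intro s
      rw [pol_tprod]
      refine Finset.sum_congr rfl fun τ _ => ?_
      rw [← h1]
      refine Finset.prod_congr rfl fun j _ => ?_
      rw [pol_const]
    rw [Finset.sum_congr rfl fun s _ => h0 s]
    simp only [pol_tprod]
    rw [Finset.sum_comm]
    have h2 : ∀ τ : Equiv.Perm (Fin b), ∑ s : Fin a → Equiv.Perm (Fin b),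
        (a.factorial : ℂ) ^ b * ∏ i, ∏ j, x j (v i (s i (τ j))) =
          (a.factorial : ℂ) ^ b * ∏ i, ∑ e : Equiv.Perm (Fin b), ∏ j, x j (v i (e j)) := by
      intro τ
      rw [← Finset.mul_sum]
      congr 1
      rw [Finset.prod_univ_sum]
      simp only [Fintype.piFinset_univ]
      refine Fintype.sum_equiv (Equiv.piCongrRight fun _ => Equiv.mulRight τ) _ _ fun s => ?_
      rfl
    rw [Finset.sum_congr rfl fun τ _ => h2 τ, Finset.sum_const, Finset.card_univ,
      Fintype.card_perm, Fintype.card_fin, nsmul_eq_mul]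
    ring
  have h := congrArg (fun F => F ξ) this
  simpa using h

theorem span_pol [FiniteDimensional ℂ V] :
    Submodule.span ℂ (Set.range (fun x : Fin b → Module.Dual ℂ V => pol b V x)) = ⊤ := by
  have hfin : Module.Finite ℂ (Sym[ℂ]^b V) := by
    have hs : Function.Surjective (SymmetricPower.mk ℂ (Fin b) V) :=
      LinearMap.range_eq_top.mp (SymmetricPower.range_mk ℂ (Fin b) V)
    exact Module.Finite.of_surjective _ hs
  set Φ := Submodule.span ℂ (Set.range (fun x : Fin b → Module.Dual ℂ V => pol b V x)) with hΦ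
  have hbot : Φ.dualCoannihilator = ⊥ := by
    rw [eq_bot_iff]
    intro η hη
    rw [Submodule.mem_bot]
    apply pol_sep
    intro f
    exact (Submodule.mem_dualCoannihilator η).mp hη _ (Submodule.subset_span ⟨f, rfl⟩)
  have h1 := Subspace.dualCoannihilator_dualAnnihilator_eq (W := Φ)
  rw [hbot, Submodule.dualAnnihilator_bot] at h1
  exact h1.symm

theorem howe_injective [FiniteDimensional ℂ V] (hab : a * (a - 1) ^ 2 ≤ 2 * b) :
    Function.Injective (howe a b V) := by
  rw [injective_iff_map_eq_zero]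
  intro ξ hξ
  let β := Module.finBasis ℂ (Module.Dual ℂ V)
  obtain ⟨T, hT⟩ := exists_univ β (pol b V) pol_perm
  let Z : MultilinearMap ℂ (fun _ : Fin a =>
      MvPolynomial (Fin (Module.finrank ℂ (Module.Dual ℂ V))) ℂ) ℂ :=
    ((LinearMap.applyₗ ξ).compMultilinearMap (pol a (Sym[ℂ]^b V))).compLinearMap (fun _ => T)
  have hZ : ∀ f, Z f = pol a (Sym[ℂ]^b V) (fun i => T (f i)) ξ := fun f => rfl
  have hfac : ∀ m : ℕ, (m.factorial : ℂ) ≠ 0 := fun m => by
    exact_mod_cast Nat.factorial_ne_zero m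
  have hk : Kills b Z := by
    constructor
    · intro π f
      rw [hZ, hZ]
      exact congrArg (fun F => F ξ) (pol_perm π (fun i => T (f i)))
    · intro g hg
      obtain ⟨l, hl, rfl⟩ := isProd_fin hg
      choose x hx using fun j => lin_surj β (l j) (hl j)
      have hTg : T (∏ j, l j) = pol b V x := by
        rw [← hT]
        simp only [hx]
      rw [hZ]
      simp only [hTg]
      have := key_identity x ξ
      rw [hξ, map_zero, mul_zero] at this
      rcases mul_eq_zero.mp this.symm with h | h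
      · exact absurd h (mul_ne_zero (pow_ne_zero _ (hfac a)) (hfac b))
      · exact h
  apply pol_sep
  intro φ
  have hzero : (LinearMap.applyₗ ξ).compMultilinearMap (pol a (Sym[ℂ]^b V)) = 0 := by
    apply MultilinearMap.ext_of_span_eq_top
      (g := fun (i : Fin a) (x : Fin b → Module.Dual ℂ V) => pol b V x)
    · intro i
      exact span_pol
    · intro x
      have h := core hab Z hk (fun i => ∏ j, lin β (x i j))
        (fun i => isProd_prod _ fun j => lin_mem β (x i j))
      rw [hZ] at h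
      simp only [hT] at h
      exact h
  exact congrArg (fun F => F φ) hzero

end

end Vale.Agent.P181
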