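import Vale.Agent.P181.Kills

namespace Vale.Agent.P181

open MvPolynomial Finset

noncomputable section

variable {σ : Type*}

/-- a polynomial `p` in one slot and `m` in all the others is killed -/
def GProp (n d : ℕ) (m : MvPolynomial σ ℂ) : Prop :=
  ∀ Z : MultilinearMap ℂ (fun _ : Fin (n + 1) => MvPolynomial σ ℂ) ℂ, Kills d Z →
    ∀ p ∈ homogeneousSubmodule σ ℂ d, Z (Fin.cons p (fun _ => m)) = 0

theorem cons_pow_span {n d : ℕ} (Z : MultilinearMap ℂ (fun _ : Fin (n + 1) => MvPolynomial σ ℂ) ℂ)
    (m : Fin n → MvPolynomial σ ℂ)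
    (h : ∀ w ∈ homogeneousSubmodule σ ℂ 1, Z (Fin.cons (w ^ d) m) = 0)
    (p : MvPolynomial σ ℂ) (hp : p ∈ homogeneousSubmodule σ ℂ d) : Z (Fin.cons p m) = 0 := by
  have hφ : ∀ h : MvPolynomial σ ℂ, Z (Fin.cons h m) = (Z.toLinearMap (Fin.cons 0 m) 0) h := by
    intro h
    rw [MultilinearMap.toLinearMap_apply, Fin.update_cons_zero]
  rw [hφ]
  refine pow_span d _ (fun w hw => ?_) p hp
  rw [← hφ]
  exact h w hw

theorem gProp_pow (n d : ℕ) {v : MvPolynomial σ ℂ} (hv : v ∈ homogeneousSubmodule σ ℂ 1) :
    GProp n d (v ^ d) := by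
  intro Z hZ p hp
  refine cons_pow_span Z _ (fun w hw => ?_) p hp
  have hZ' : Kills (0 + d) Z := by rwa [Nat.zero_add]
  have h := (hZ'.polar hv hw).zero 1 ⟨0, by simp, by simp, by simp⟩
  rw [polar_apply] at h
  simp only [LinearMap.mulLeft_apply, mul_one] at h
  have h2 : ∀ k : Fin (n + 1), Z (fun i => if i = k then w ^ d else v ^ d) =
      Z (Fin.cons (w ^ d) (fun _ => v ^ d)) := by
    intro k
    rw [← hZ.symm (Equiv.swap k 0)]
    congr 1
    funext i
    refine Fin.cases ?_ (fun i => ?_) i
    · simp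
    · rw [Fin.cons_succ]
      rw [if_neg]
      intro hh
      have := (Equiv.swap k 0).injective (hh.trans (Equiv.swap_apply_right k 0).symm)
      exact Fin.succ_ne_zero i this
  rw [Finset.sum_congr rfl fun k _ => h2 k, Finset.sum_const, Finset.card_univ, Fintype.card_fin,
    nsmul_eq_mul] at h
  rcases mul_eq_zero.mp h with h0 | h0
  · exact absurd h0 (Nat.cast_ne_zero.mpr (Nat.succ_ne_zero n))
  · exact h0

/-- stripping off one linear factor -/
theorem gProp_step {n d : ℕ} (hnd : n ≤ d) {m t : MvPolynomial σ ℂ} (hm : GProp n d m)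
    (ht : t ∈ homogeneousSubmodule σ ℂ 1) : GProp n (d + 1) (m * t) := by
  intro Z hZ p hp
  refine cons_pow_span Z _ (fun y hy => ?_) p hp
  have hex : ∀ j : ℕ, ∃ P : Polynomial ℂ, P.natDegree ≤ n ∧
      ∀ s : ℂ, P.eval s = Z.curryLeft (y ^ (d + 1 - j) * t ^ j) (fun _ => (t + s • y) ^ 1 * m) := by
    intro j
    obtain ⟨P, hP, hP'⟩ := exists_poly (Z.curryLeft (y ^ (d + 1 - j) * t ^ j)) (fun _ => 1) t y
      (fun _ => m)
    exact ⟨P, by simpa using hP, hP'⟩
  choose L hLdeg hLeval using hex
  have hrel : ∀ j ≤ d, L (j + 1) = - Polynomial.X * L j := by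
    intro j hj
    apply Polynomial.funext
    intro s
    have hts : t + s • y ∈ homogeneousSubmodule σ ℂ 1 :=
      Submodule.add_mem _ ht (Submodule.smul_mem _ s hy)
    have h := hm _ (hZ.mul (isProd_one hts)) (y ^ (d - j) * t ^ j)
      (hom_mul (hom_pow hy _) (hom_pow ht _) (by omega))
    rw [MultilinearMap.compLinearMap_apply] at h
    have hc : (fun i : Fin (n + 1) => (LinearMap.mulLeft ℂ (t + s • y))
        ((Fin.cons (y ^ (d - j) * t ^ j) (fun _ => m) : Fin (n + 1) → MvPolynomial σ ℂ) i)) =
        Fin.cons (y ^ (d + 1 - (j + 1)) * t ^ (j + 1) + s • (y ^ (d + 1 - j) * t ^ j))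
          (fun _ => (t + s • y) ^ 1 * m) := by
      funext i
      refine Fin.cases ?_ (fun i => ?_) i
      · simp only [LinearMap.mulLeft_apply, Fin.cons_zero]
        have e1 : d + 1 - (j + 1) = d - j := by omega
        have e2 : d + 1 - j = (d - j) + 1 := by omega
        rw [e1, e2, smul_eq_C_mul, smul_eq_C_mul]
        ring
      · simp only [LinearMap.mulLeft_apply, Fin.cons_succ, pow_one]
    rw [hc] at h
    rw [Polynomial.eval_mul, Polynomial.eval_neg, Polynomial.eval_X, hLeval, hLeval,
      MultilinearMap.curryLeft_apply, MultilinearMap.curryLeft_apply]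
    rw [Z.cons_add, Z.cons_smul, smul_eq_mul] at h
    linear_combination h
  have hpow : ∀ j ≤ d + 1, L j = (- Polynomial.X) ^ j * L 0 := by
    intro j
    induction j with
    | zero => intro _; simp
    | succ j ih =>
      intro hj
      rw [hrel j (by omega), ih (by omega)]
      ring
  have h0 : L 0 = 0 := by
    by_contra hne
    have h1 := hLdeg (n + 1)
    have hX : (- Polynomial.X : Polynomial ℂ) ≠ 0 := neg_ne_zero.mpr Polynomial.X_ne_zero
    rw [hpow (n + 1) (by omega), Polynomial.natDegree_mul (pow_ne_zero _ hX) hne,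
      Polynomial.natDegree_pow, Polynomial.natDegree_neg, Polynomial.natDegree_X] at h1
    omega
  have h1 := hLeval 0 0
  rw [h0, Polynomial.eval_zero, MultilinearMap.curryLeft_apply] at h1
  rw [← mul_comm t m]
  simpa using h1.symm

theorem gProp_mul {n d : ℕ} (hnd : n ≤ d) {m : MvPolynomial σ ℂ} (hm : GProp n d m)
    {k : ℕ} {g : MvPolynomial σ ℂ} (hg : IsProd k g) : GProp n (d + k) (m * g) := by
  obtain ⟨s, hs, hs1, rfl⟩ := hg
  subst hs
  induction s using Multiset.induction_on with
  | empty => simpa using hm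
  | cons t s ih =>
    have h := ih (fun l hl => hs1 l (Multiset.mem_cons_of_mem hl))
    have := gProp_step (hnd.trans (Nat.le_add_right _ _)) h (hs1 t (Multiset.mem_cons_self _ _))
    rw [Multiset.card_cons, Multiset.prod_cons, mul_comm t, ← mul_assoc, ← add_assoc]
    exact this

/-- fixing one slot -/
theorem coreQuad (a : ℕ) : ∀ (b : ℕ) (_ : (a - 1) ^ 2 ≤ b)
    (Z : MultilinearMap ℂ (fun _ : Fin a => MvPolynomial σ ℂ) ℂ) (_ : Kills b Z)
    (f : Fin a → MvPolynomial σ ℂ) (_ : ∀ i, f i ∈ homogeneousSubmodule σ ℂ b), Z f = 0 := by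
  induction a with
  | zero =>
    intro b _ Z hZ f _
    rw [← hZ.zero _ (isProd_pow (Submodule.zero_mem _) b)]
    congr 1
    funext i
    exact i.elim0
  | succ a ih =>
    intro b hb Z hZ f hf
    rw [Nat.add_sub_cancel] at hb
    have hf0 : Z f = Z.curryLeft (f 0) (fun i => f i.succ) := by
      rw [MultilinearMap.curryLeft_apply]
      congr 1
      exact (Fin.cons_self_tail f).symm
    rw [hf0]
    refine pencil a (fun _ => a) (fun _ => b) ?_ _ ?_ _ (fun i => hf i.succ)
    · intro i
      calc (∑ _j : Fin a, if i ≤ _j then a else 0) ≤ ∑ _j : Fin a, a :=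
            Finset.sum_le_sum fun j _ => by split_ifs <;> omega
        _ = a ^ 2 := by simp [sq]
        _ ≤ b := hb
    · intro v hv f' hf'
      have hab : a ≤ b := le_trans (Nat.le_self_pow two_ne_zero a) hb
      have hk : Kills (b - a) ((Z.curryLeft (f 0)).compLinearMap
          (fun _ => LinearMap.mulLeft ℂ (v ^ a))) := by
        constructor
        · intro π g
          simp only [MultilinearMap.compLinearMap_apply, LinearMap.mulLeft_apply,
            MultilinearMap.curryLeft_apply]
          have := hZ.symm (Equiv.Perm.decomposeFin.symm (0, π))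
            (Fin.cons (f 0) (fun i => v ^ a * g i))
          rw [← this]
          congr 1
          funext i
          refine Fin.cases ?_ (fun i => ?_) i
          · simp
          · simp
        · intro g hg
          simp only [MultilinearMap.compLinearMap_apply, LinearMap.mulLeft_apply,
            MultilinearMap.curryLeft_apply]
          have := gProp_mul (n := a) le_rfl (gProp_pow a a hv) hg
          have e : a + (b - a) = b := by omega
          rw [e] at this
          exact this Z hZ (f 0) (hf 0)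
      have := ih (b - a) ?_ _ hk f' hf'
      · simpa using this
      · rcases Nat.eq_zero_or_pos a with rfl | ha
        · simp
        · obtain ⟨k, rfl⟩ : ∃ k, a = k + 1 := ⟨a - 1, by omega⟩
          rw [Nat.add_sub_cancel]
          have : (k + 1) ^ 2 = k ^ 2 + 2 * k + 1 := by ring
          omega

end

end Vale.Agent.P181
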