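import Vale.Agent.P181.Main
import Vale.Agent.P181.Quad

namespace Vale.Agent.P181

open scoped TensorProduct
open MvPolynomial

noncomputable section

universe u

variable {a b : ℕ} {V : Type u} [AddCommGroup V] [Module ℂ V]

theorem howe_injective_of [FiniteDimensional ℂ V]
    (hcore : ∀ (n : ℕ) (Z : MultilinearMap ℂ (fun _ : Fin a => MvPolynomial (Fin n) ℂ) ℂ),
      Kills b Z → ∀ f : Fin a → MvPolynomial (Fin n) ℂ,
        (∀ i, f i ∈ homogeneousSubmodule (Fin n) ℂ b) → Z f = 0) :
    Function.Injective (howe a b V) := by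
  rw [injective_iff_map_eq_zero]
  intro ξ hξ
  let β := Module.finBasis ℂ (Module.Dual ℂ V)
  obtain ⟨T, hT⟩ := exists_univ β (pol b V) pol_perm
  let Z : MultilinearMap ℂ (fun _ : Fin a =>
      MvPolynomial (Fin (Module.finrank ℂ (Module.Dual ℂ V))) ℂ) ℂ :=
    ((LinearMap.applyₗ ξ).compMultilinearMap (pol a (Sym[ℂ]^b V))).compLinearMap (fun _ => T)
  have hZ : ∀ f, Z f = pol a (Sym[ℂ]^b V) (fun i => T (f i)) ξ := fun f => rfl
  have hfac : ∀ m : ℕ, (m.factorial : ℂ) ≠ 0 := fun m => by
    exact_mod_cast Nat.factorial_ne_zero m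
  have hk : Kills b Z := by
    constructor
    · intro π f
      rw [hZ, hZ]
      exact congrArg (fun F => F ξ) (pol_perm π (fun i => T (f i)))
    · intro g hg
      obtain ⟨l, hl, rfl⟩ := isProd_fin hg
      choose x hx using fun j => lin_surj β (l j) (hl j)
      have hTg : T (∏ j, l j) = pol b V x := by
        rw [← hT]
        simp only [hx]
      rw [hZ]
      simp only [hTg]
      have := key_identity x ξ
      rw [hξ, map_zero, mul_zero] at this
      rcases mul_eq_zero.mp this.symm with h | h
      · exact absurd h (mul_ne_zero (pow_ne_zero _ (hfac a)) (hfac b))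
      · exact h
  apply pol_sep
  intro φ
  have hzero : (LinearMap.applyₗ ξ).compMultilinearMap (pol a (Sym[ℂ]^b V)) = 0 := by
    apply MultilinearMap.ext_of_span_eq_top
      (g := fun (i : Fin a) (x : Fin b → Module.Dual ℂ V) => pol b V x)
    · intro i
      exact span_pol
    · intro x
      have h := hcore _ Z hk (fun i => ∏ j, lin β (x i j))
        (fun i => isProd_prod _ fun j => lin_mem β (x i j))
      rw [hZ] at h
      simp only [hT] at h
      exact h
  exact congrArg (fun F => F φ) hzero

theorem howe_injective_quad [FiniteDimensional ℂ V] (hab : (a - 1) ^ 2 ≤ b) :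
    Function.Injective (howe a b V) :=
  howe_injective_of fun _ Z hZ f hf => coreQuad a b hab Z hZ f hf

end

end Vale.Agent.P181
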