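import Vale.Agent.P181.Poly

namespace Vale.Agent.P181

open MvPolynomial Finset

noncomputable section

variable {σ : Type*}

theorem hom_pow {w : MvPolynomial σ ℂ} (hw : w ∈ homogeneousSubmodule σ ℂ 1) (m : ℕ) :
    w ^ m ∈ homogeneousSubmodule σ ℂ m := by
  have := IsHomogeneous.pow hw m
  rwa [one_mul] at this

theorem hom_mul {f g : MvPolynomial σ ℂ} {m n k : ℕ} (hf : f ∈ homogeneousSubmodule σ ℂ m)
    (hg : g ∈ homogeneousSubmodule σ ℂ n) (h : m + n = k) :
    f * g ∈ homogeneousSubmodule σ ℂ k := by
  subst h
  exact IsHomogeneous.mul hf hg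

/-- evaluating a multilinear map on polynomial curves gives a polynomial -/
theorem exists_poly {a : ℕ} (Ψ : MultilinearMap ℂ (fun _ : Fin a => MvPolynomial σ ℂ) ℂ)
    (c : Fin a → ℕ) (v w : MvPolynomial σ ℂ) (f : Fin a → MvPolynomial σ ℂ) :
    ∃ P : Polynomial ℂ, P.natDegree ≤ ∑ i, c i ∧
      ∀ t : ℂ, P.eval t = Ψ (fun i => (v + t • w) ^ c i * f i) := by
  classical
  let A : (i : Fin a) → ℕ → MvPolynomial σ ℂ := fun i r =>
    w ^ r * v ^ (c i - r) * ((c i).choose r : MvPolynomial σ ℂ) * f i
  refine ⟨∑ r ∈ Fintype.piFinset (fun i => range (c i + 1)),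
    Polynomial.C (Ψ (fun i => A i (r i))) * Polynomial.X ^ (∑ i, r i), ?_, ?_⟩
  · refine Polynomial.natDegree_sum_le_of_forall_le _ _ fun r hr => ?_
    refine (Polynomial.natDegree_C_mul_X_pow_le _ _).trans ?_
    refine Finset.sum_le_sum fun i _ => ?_
    have := Fintype.mem_piFinset.mp hr i
    rw [mem_range] at this
    omega
  · intro t
    have e : (fun i => (v + t • w) ^ c i * f i) =
        fun i => ∑ r ∈ range (c i + 1), (t ^ r • A i r) := by
      funext i
      rw [add_comm v, add_pow, Finset.sum_mul]
      refine Finset.sum_congr rfl fun r _ => ?_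
      simp only [A, smul_pow, smul_mul_assoc]
    rw [e, MultilinearMap.map_sum_finset, Polynomial.eval_finsetSum]
    refine Finset.sum_congr rfl fun r _ => ?_
    rw [MultilinearMap.map_smul_univ, Finset.prod_pow_eq_pow_sum, Polynomial.eval_mul,
      Polynomial.eval_C, Polynomial.eval_pow, Polynomial.eval_X, smul_eq_mul, mul_comm]

theorem pencil (a : ℕ) : ∀ (c e : Fin a → ℕ)
    (_ : ∀ i, (∑ j, if i ≤ j then c j else 0) ≤ e i)
    (Φ : MultilinearMap ℂ (fun _ : Fin a => MvPolynomial σ ℂ) ℂ)
    (_ : ∀ v ∈ homogeneousSubmodule σ ℂ 1, ∀ f : Fin a → MvPolynomial σ ℂ,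
      (∀ i, f i ∈ homogeneousSubmodule σ ℂ (e i - c i)) → Φ (fun i => v ^ c i * f i) = 0)
    (f : Fin a → MvPolynomial σ ℂ) (_ : ∀ i, f i ∈ homogeneousSubmodule σ ℂ (e i)), Φ f = 0 := by
  classical
  induction a with
  | zero =>
    intro c e _ Φ hΦ f _
    have := hΦ 0 (Submodule.zero_mem _) f (fun i => i.elim0)
    rw [← this]
    congr 1
    funext i
    exact i.elim0
  | succ a ih =>
    intro c e hce Φ hΦ f hf
    have hf0 : Φ f = Φ.curryLeft (f 0) (fun i => f i.succ) := by
      rw [MultilinearMap.curryLeft_apply]
      congr 1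
      exact (Fin.cons_self_tail f).symm
    rw [hf0]
    refine ih (fun i => c i.succ) (fun i => e i.succ) ?_ _ ?_ _ (fun i => hf i.succ)
    · intro i
      have := hce i.succ
      rw [Fin.sum_univ_succ] at this
      simp only [Fin.succ_le_succ_iff] at this
      have h0 : ¬ (i.succ ≤ (0 : Fin (a + 1))) := by
        intro h
        exact absurd (Fin.le_zero_iff.mp h) (Fin.succ_ne_zero i)
      rw [if_neg h0, zero_add] at this
      exact this
    · intro v hv f' hf'
      -- reduce the head to a power of a linear form
      set M : Fin a → MvPolynomial σ ℂ := fun i => v ^ c i.succ * f' i with hM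
      have hφ : ∀ h : MvPolynomial σ ℂ, Φ.curryLeft h M =
          (Φ.toLinearMap (Fin.cons 0 M) 0) h := by
        intro h
        rw [MultilinearMap.curryLeft_apply, MultilinearMap.toLinearMap_apply, Fin.update_cons_zero]
      rw [hφ]
      refine pow_span (e 0) _ ?_ (f 0) (hf 0)
      intro w hw
      rw [← hφ]
      -- numerical data
      set n : ℕ := ∑ j : Fin a, c j.succ with hn
      set c0 : ℕ := c 0 with hc0
      have he0 : n + c0 ≤ e 0 := by
        have := hce 0
        rw [Fin.sum_univ_succ] at this
        simp only [Fin.zero_le, if_true] at this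
        omega
      set k : ℕ := e 0 - (n + c0) with hk
      let T : ℂ → Fin a → MvPolynomial σ ℂ := fun t i => (v + t • w) ^ c i.succ * f' i
      have hex : ∀ j : ℕ, ∃ P : Polynomial ℂ, P.natDegree ≤ n ∧
          ∀ t : ℂ, P.eval t = Φ.curryLeft (v ^ j * w ^ (n + c0 - j) * w ^ k) (T t) := by
        intro j
        exact exists_poly (Φ.curryLeft (v ^ j * w ^ (n + c0 - j) * w ^ k)) (fun i => c i.succ) v w f'
      choose L hLdeg hLeval using hex
      have hrel : ∀ j ≤ n, ∑ i ∈ range (c0 + 1),
          Polynomial.C ((c0.choose i : ℕ) : ℂ) * Polynomial.X ^ (c0 - i) * L (j + i) = 0 := by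
        intro j hj
        apply Polynomial.funext
        intro t
        rw [Polynomial.eval_finsetSum, Polynomial.eval_zero]
        have hvt : v + t • w ∈ homogeneousSubmodule σ ℂ 1 :=
          Submodule.add_mem _ hv (Submodule.smul_mem _ t hw)
        have hz := hΦ (v + t • w) hvt (Fin.cons (v ^ j * w ^ (n - j) * w ^ k) f') ?_
        · have hcons : (fun i => (v + t • w) ^ c i *
              (Fin.cons (v ^ j * w ^ (n - j) * w ^ k) f' : Fin (a + 1) → MvPolynomial σ ℂ) i) =
              Fin.cons ((v + t • w) ^ c0 * (v ^ j * w ^ (n - j) * w ^ k)) (T t) := by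
            funext i
            refine Fin.cases ?_ (fun i => ?_) i
            · simp [hc0]
            · simp [T]
          rw [hcons] at hz
          have hz' : (Φ.toLinearMap (Fin.cons 0 (T t)) 0)
              ((v + t • w) ^ c0 * (v ^ j * w ^ (n - j) * w ^ k)) = 0 := by
            rw [MultilinearMap.toLinearMap_apply, Fin.update_cons_zero]
            exact hz
          rw [add_pow, Finset.sum_mul, map_sum] at hz'
          rw [← hz']
          refine Finset.sum_congr rfl fun i hi => ?_
          have hi' : i ≤ c0 := by rw [mem_range] at hi; omega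
          simp only [Polynomial.eval_mul, Polynomial.eval_C, Polynomial.eval_pow,
            Polynomial.eval_X]
          rw [hLeval]
          have hpoly : v ^ i * (t • w) ^ (c0 - i) * ((c0.choose i : ℕ) : MvPolynomial σ ℂ) *
              (v ^ j * w ^ (n - j) * w ^ k) =
              (((c0.choose i : ℕ) : ℂ) * t ^ (c0 - i)) •
                (v ^ (j + i) * w ^ (n + c0 - (j + i)) * w ^ k) := by
            have h1 : n + c0 - (j + i) = (c0 - i) + (n - j) := by omega
            rw [h1, pow_add, pow_add, smul_pow, smul_eq_C_mul, smul_eq_C_mul, C_mul]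
            simp only [map_natCast, map_pow]
            ring
          rw [hpoly, map_smul, smul_eq_mul, MultilinearMap.toLinearMap_apply,
            Fin.update_cons_zero, MultilinearMap.curryLeft_apply]
        · intro i
          refine Fin.cases ?_ (fun i => ?_) i
          · simp only [Fin.cons_zero]
            exact hom_mul (hom_mul (hom_pow hv j) (hom_pow hw (n - j)) rfl) (hom_pow hw k)
              (by omega)
          · simpa using hf' i
      -- the diagonal coefficients
      have hy : ∀ j ≤ n, ∑ i ∈ range (c0 + 1), ((c0.choose i : ℕ) : ℂ) * (L (j + i)).coeff (j + i)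
          = 0 := by
        intro j hj
        have := congrArg (fun P => Polynomial.coeff P (j + c0)) (hrel j hj)
        simp only [Polynomial.finsetSum_coeff, Polynomial.coeff_zero] at this
        rw [← this]
        refine Finset.sum_congr rfl fun i hi => ?_
        have hi' : i ≤ c0 := by rw [mem_range] at hi; omega
        rw [mul_assoc, Polynomial.coeff_C_mul, Polynomial.coeff_X_pow_mul']
        rw [if_pos (by omega)]
        congr 2
        omega
      have hbig : ∀ j, n < j → (L j).coeff j = 0 := fun j hj =>
        Polynomial.coeff_eq_zero_of_natDegree_lt (lt_of_le_of_lt (hLdeg j) hj)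
      have hall : ∀ m j, n < j + m → (L j).coeff j = 0 := by
        intro m
        induction m with
        | zero => intro j hj; exact hbig j (by simpa using hj)
        | succ m ihm =>
          intro j hj
          by_cases hjn : n < j
          · exact hbig j hjn
          · have h1 := hy j (by omega)
            rw [Finset.sum_range_succ'] at h1
            have h2 : ∑ i ∈ range c0, ((c0.choose (i + 1) : ℕ) : ℂ) *
                (L (j + (i + 1))).coeff (j + (i + 1)) = 0 := by
              refine Finset.sum_eq_zero fun i _ => ?_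
              rw [ihm (j + (i + 1)) (by omega), mul_zero]
            rw [h2] at h1
            simpa using h1
      have h0 := hall (n + 1) 0 (by omega)
      rw [Polynomial.coeff_zero_eq_eval_zero, hLeval] at h0
      have hT0 : T 0 = M := by
        funext i
        simp [T, hM]
      rw [hT0] at h0
      have : w ^ e 0 = v ^ 0 * w ^ (n + c0 - 0) * w ^ k := by
        rw [pow_zero, one_mul, Nat.sub_zero, ← pow_add]
        congr 1
        omega
      rw [this]
      exact h0

end

end Vale.Agent.P181
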