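import Vale.Agent.P181.SymPow

namespace Vale.Agent.P181

open scoped TensorProduct

noncomputable section

universe u w

variable {k : ℕ} {M : Type u} {N : Type w} [AddCommGroup M] [Module ℂ M]
  [AddCommGroup N] [Module ℂ N]

/-- symmetrisation `Sym^k M → M^{⊗ k}` -/
def symmz (k : ℕ) (M : Type u) [AddCommGroup M] [Module ℂ M] : Sym[ℂ]^k M →ₗ[ℂ] ⨂[ℂ]^k M :=
  symLift (∑ e : Equiv.Perm (Fin k), (PiTensorProduct.tprod ℂ).domDomCongr e)
    (fun e f => by
      rw [_root_.sum_apply, _root_.sum_apply]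
      simp only [MultilinearMap.domDomCongr_apply]
      exact Fintype.sum_equiv (Equiv.mulLeft e) _ _ (fun x => rfl))

theorem symmz_tprod (m : Fin k → M) :
    symmz k M (⨂ₛ[ℂ] i, m i) = ∑ e : Equiv.Perm (Fin k), ⨂ₜ[ℂ] i, m (e i) := by
  rw [symmz, symLift_tprod, _root_.sum_apply]
  rfl

theorem mk_symmz (x : Sym[ℂ]^k M) :
    SymmetricPower.mk ℂ (Fin k) M (symmz k M x) = (k.factorial : ℂ) • x := by
  have : (SymmetricPower.mk ℂ (Fin k) M) ∘ₗ (symmz k M) = (k.factorial : ℂ) • LinearMap.id := by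
    apply sym_ext
    intro m
    rw [LinearMap.comp_apply, symmz_tprod, map_sum, LinearMap.smul_apply, LinearMap.id_apply]
    have h : ∀ e : Equiv.Perm (Fin k), SymmetricPower.mk ℂ (Fin k) M (⨂ₜ[ℂ] i, m (e i)) =
        ⨂ₛ[ℂ] i, m i := by
      intro e
      exact SymmetricPower.tprod_equiv e m
    rw [Finset.sum_congr rfl fun e _ => h e, Finset.sum_const, Finset.card_univ,
      Fintype.card_perm, Fintype.card_fin, Nat.cast_smul_eq_nsmul]
  exact congrArg (fun F => F x) this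

/-- the polarised pairing: `pol f (m₁ ⋯ m_k) = ∑_e ∏_i f_i (m_{e i})` -/
def pol (k : ℕ) (M : Type u) [AddCommGroup M] [Module ℂ M] :
    MultilinearMap ℂ (fun _ : Fin k => Module.Dual ℂ M) (Module.Dual ℂ (Sym[ℂ]^k M)) :=
  ((symmz k M).dualMap ∘ₗ PiTensorProduct.dualDistrib).compMultilinearMap (PiTensorProduct.tprod ℂ)

theorem pol_apply (f : Fin k → Module.Dual ℂ M) (x : Sym[ℂ]^k M) :
    pol k M f x = PiTensorProduct.dualDistrib (⨂ₜ[ℂ] i, f i) (symmz k M x) := rfl

theorem pol_tprod (f : Fin k → Module.Dual ℂ M) (m : Fin k → M) :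
    pol k M f (⨂ₛ[ℂ] i, m i) = ∑ e : Equiv.Perm (Fin k), ∏ i, f i (m (e i)) := by
  rw [pol_apply, symmz_tprod, map_sum]
  refine Finset.sum_congr rfl fun e _ => ?_
  rw [PiTensorProduct.dualDistrib_apply]

theorem pol_perm (e : Equiv.Perm (Fin k)) (f : Fin k → Module.Dual ℂ M) :
    pol k M (fun i => f (e i)) = pol k M f := by
  apply sym_ext
  intro m
  rw [pol_tprod, pol_tprod]
  refine Fintype.sum_equiv (Equiv.mulRight e⁻¹) _ _ fun x => ?_
  refine Fintype.prod_equiv e _ _ fun i => ?_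
  simp

/-- the functionals `pol f` separate the points of `Sym^k M` -/
theorem pol_sep (x : Sym[ℂ]^k M) (h : ∀ f : Fin k → Module.Dual ℂ M, pol k M f x = 0) :
    x = 0 := by
  let B := Module.Basis.ofVectorSpace ℂ M
  let BB := Basis.piTensorProduct (R := ℂ) (fun _ : Fin k => B)
  have ht : symmz k M x = 0 := by
    apply BB.ext_elem
    intro p
    rw [map_zero, Finsupp.zero_apply]
    have hlin : (BB.coord p : (⨂[ℂ] _ : Fin k, M) →ₗ[ℂ] ℂ) =
        PiTensorProduct.dualDistrib (⨂ₜ[ℂ] i, B.coord (p i)) := by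
      apply PiTensorProduct.ext
      ext m
      simp [BB]
    have := h (fun i => B.coord (p i))
    rw [pol_apply, ← hlin] at this
    exact this
  have h1 := mk_symmz x
  rw [ht, map_zero] at h1
  have h2 : (k.factorial : ℂ) ≠ 0 := by exact_mod_cast Nat.factorial_ne_zero k
  exact (smul_eq_zero.mp h1.symm).resolve_left h2

end

end Vale.Agent.P181
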