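import Mathlib

namespace Vale.Agent.P181

open MvPolynomial Finset

noncomputable section

/-- coefficients of a polynomial function vanishing identically on `ℂ` are zero -/
theorem coeff_zero_of_eval (n : ℕ) (c : ℕ → ℂ)
    (h : ∀ t : ℂ, ∑ k ∈ range n, c k * t ^ k = 0) : ∀ k < n, c k = 0 := by
  have hP : (∑ k ∈ range n, Polynomial.monomial k (c k) : Polynomial ℂ) = 0 := by
    apply Polynomial.funext
    intro t
    simp only [Polynomial.eval_finsetSum, Polynomial.eval_monomial, Polynomial.eval_zero]
    exact h t
  intro k hk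
  have := congrArg (fun P => Polynomial.coeff P k) hP
  simp only [Polynomial.finsetSum_coeff, Polynomial.coeff_monomial, Polynomial.coeff_zero] at this
  rw [Finset.sum_ite_eq' (range n) k] at this
  simpa [hk] using this

variable {σ : Type*}

theorem pow_span (d : ℕ) : ∀ (φ : MvPolynomial σ ℂ →ₗ[ℂ] ℂ),
    (∀ w ∈ homogeneousSubmodule σ ℂ 1, φ (w ^ d) = 0) →
    ∀ f ∈ homogeneousSubmodule σ ℂ d, φ f = 0 := by
  classical
  induction d with
  | zero =>
    intro φ h f hf
    have h1 : φ 1 = 0 := by simpa using h 0 (Submodule.zero_mem _)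
    rw [f.as_sum, map_sum]
    refine Finset.sum_eq_zero fun m hm => ?_
    have hm' : m.degree = 0 := by
      rw [Finsupp.degree_eq_weight_one]
      exact hf (mem_support_iff.mp hm)
    have hm0 : m = 0 := (Finsupp.degree_eq_zero_iff m).mp hm'
    subst hm0
    have : (monomial 0 (coeff 0 f) : MvPolynomial σ ℂ) = coeff 0 f • 1 := by
      rw [smul_eq_C_mul, mul_one]; rfl
    rw [this, map_smul, h1, smul_zero]
  | succ d ih =>
    intro φ h f hf
    have key : ∀ (i : σ) (w) (_ : w ∈ homogeneousSubmodule σ ℂ 1), φ (X i * w ^ d) = 0 := by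
      intro i w hw
      have hX : (X i : MvPolynomial σ ℂ) ∈ homogeneousSubmodule σ ℂ 1 := isHomogeneous_X ℂ i
      have hc := coeff_zero_of_eval (d + 1 + 1)
        (fun m => φ ((X i) ^ m * w ^ (d + 1 - m) * ((d + 1).choose m : MvPolynomial σ ℂ))) ?_ 1
        (by omega)
      · simp only [pow_one, Nat.choose_one_right, Nat.add_sub_cancel] at hc
        have e : (X i * w ^ d * ((d + 1 : ℕ) : MvPolynomial σ ℂ)) = ((d : ℂ) + 1) • (X i * w ^ d) := by
          rw [smul_eq_C_mul]; push_cast; simp [mul_comm]
        rw [e, map_smul, smul_eq_mul] at hc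
        rcases mul_eq_zero.mp hc with h0 | h0
        · exact absurd h0 (Nat.cast_add_one_ne_zero d)
        · exact h0
      · intro t
        have := h (t • X i + w) (Submodule.add_mem _ (Submodule.smul_mem _ t hX) hw)
        rw [add_pow, map_sum] at this
        rw [← this]
        refine Finset.sum_congr rfl fun m _ => ?_
        rw [smul_pow, smul_mul_assoc, smul_mul_assoc, map_smul, smul_eq_mul, mul_comm]
    rw [f.as_sum, map_sum]
    refine Finset.sum_eq_zero fun m hm => ?_
    have hm' : m.degree = d + 1 := by
      rw [Finsupp.degree_eq_weight_one]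
      exact hf (mem_support_iff.mp hm)
    obtain ⟨i, hi⟩ : ∃ i, m i ≠ 0 := by
      by_contra hcon
      push Not at hcon
      have : m = 0 := Finsupp.ext hcon
      rw [this] at hm'
      simp at hm'
    have hle : Finsupp.single i 1 ≤ m := by
      rw [Finsupp.single_le_iff]; omega
    have hsplit : m = Finsupp.single i 1 + (m - Finsupp.single i 1) := by
      rw [add_tsub_cancel_of_le hle]
    have hdeg : (m - Finsupp.single i 1).degree = d := by
      have h2 : m.degree = (Finsupp.single i 1).degree + (m - Finsupp.single i 1).degree := by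
        conv_lhs => rw [hsplit]
        rw [map_add]
      rw [hm', Finsupp.degree_single] at h2
      omega
    have hmon : (monomial m (coeff m f) : MvPolynomial σ ℂ) =
        X i * monomial (m - Finsupp.single i 1) (coeff m f) := by
      rw [X, monomial_mul, one_mul, ← hsplit]
    rw [hmon]
    have := ih (φ ∘ₗ LinearMap.mulLeft ℂ (X i)) (fun w hw => by simpa using key i w hw)
      (monomial (m - Finsupp.single i 1) (coeff m f)) (isHomogeneous_monomial _ hdeg)
    simpa using this

end

end Vale.Agent.P181
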