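import Vale.Agent.P181.Lift

namespace Vale.Agent.P181

open scoped TensorProduct

noncomputable section

universe u w

variable {k : ℕ} {M : Type u} {N : Type w} [AddCommGroup M] [Module ℂ M]
  [AddCommGroup N] [Module ℂ N]

theorem symLift_mk (μ : MultilinearMap ℂ (fun _ : Fin k => M) N)
    (hμ : ∀ (e : Equiv.Perm (Fin k)) (f : Fin k → M), μ (fun i => f (e i)) = μ f)
    (x : ⨂[ℂ] _ : Fin k, M) :
    symLift μ hμ (SymmetricPower.mk ℂ (Fin k) M x) = PiTensorProduct.lift μ x := rfl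

theorem symLift_tprod (μ : MultilinearMap ℂ (fun _ : Fin k => M) N)
    (hμ : ∀ (e : Equiv.Perm (Fin k)) (f : Fin k → M), μ (fun i => f (e i)) = μ f)
    (m : Fin k → M) : symLift μ hμ (⨂ₛ[ℂ] i, m i) = μ m := by
  change symLift μ hμ (SymmetricPower.mk ℂ (Fin k) M (PiTensorProduct.tprod ℂ m)) = _
  rw [symLift_mk, PiTensorProduct.lift.tprod]

theorem symMap_tprod (g : M →ₗ[ℂ] N) (m : Fin k → M) :
    symMap k g (⨂ₛ[ℂ] i, m i) = ⨂ₛ[ℂ] i, g (m i) := by
  rw [symMap, symLift_tprod, MultilinearMap.compLinearMap_apply]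

/-- linear maps out of a symmetric power agreeing on pure tensors are equal -/
theorem sym_ext {F G : Sym[ℂ]^k M →ₗ[ℂ] N}
    (h : ∀ m : Fin k → M, F (⨂ₛ[ℂ] i, m i) = G (⨂ₛ[ℂ] i, m i)) : F = G := by
  apply LinearMap.ext_on_range (SymmetricPower.span_tprod_eq_top (R := ℂ) (ι := Fin k) (M := M))
  exact h

/-- linear maps out of an iterated symmetric power agreeing on pure tensors are equal -/
theorem sym_sym_ext {a b : ℕ} {F G : Sym[ℂ]^a (Sym[ℂ]^b M) →ₗ[ℂ] N}
    (h : ∀ m : Fin a → Fin b → M, F (⨂ₛ[ℂ] i, ⨂ₛ[ℂ] j, m i j) = G (⨂ₛ[ℂ] i, ⨂ₛ[ℂ] j, m i j)) :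
    F = G := by
  apply sym_ext
  intro m
  have : F.compMultilinearMap (SymmetricPower.tprod ℂ) =
      G.compMultilinearMap (SymmetricPower.tprod ℂ) := by
    apply MultilinearMap.ext_of_span_eq_top
      (g := fun (i : Fin a) (j : Fin b → M) => (⨂ₛ[ℂ] k, j k : Sym[ℂ]^b M))
    · intro i
      exact SymmetricPower.span_tprod_eq_top ℂ (Fin b) M
    · intro j
      exact h j
  exact congrArg (fun Q => Q m) this

end

end Vale.Agent.P181
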